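import Vale.Agent.P305.R2.H434.Spec
import Mathlib.Tactic

/-!
# P305: interlacing at a vertex
-/

set_option autoImplicit false
set_option linter.unusedSimpArgs false
set_option linter.unusedTactic false
set_option linter.unreachableTactic false

namespace Vale.Agent.P305.R2.H703.V

open Vale.Agent.P305.H434

/-- Three upper vectors do not turn around. -/
theorem K {a b c : ℝ × ℝ} (ha : Up a) (hb : Up b) (hc : Up c) (h1 : 0 < det a b)
    (h2 : 0 ≤ det b c) (h3 : 0 ≤ det c a) : False := by
  obtain ⟨a1, a2⟩ := a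
  obtain ⟨b1, b2⟩ := b
  obtain ⟨c1, c2⟩ := c
  simp only [Up, det] at *
  have ha2 : 0 ≤ a2 := by rcases ha with h | ⟨h, h'⟩ <;> linarith
  have hb2 : 0 ≤ b2 := by rcases hb with h | ⟨h, h'⟩ <;> linarith
  have hc2 : 0 ≤ c2 := by rcases hc with h | ⟨h, h'⟩ <;> linarith
  have key : a2 * (b1 * c2 - b2 * c1) + b2 * (c1 * a2 - c2 * a1) + c2 * (a1 * b2 - a2 * b1) = 0 := by
    ring
  have k1 : 0 ≤ a2 * (b1 * c2 - b2 * c1) := mul_nonneg ha2 h2
  have k2 : 0 ≤ b2 * (c1 * a2 - c2 * a1) := mul_nonneg hb2 h3
  have k3 : c2 = 0 := by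
    rcases hc2.eq_or_lt with h | h
    · exact h.symm
    · have := mul_pos h h1
      linarith
  have hc1 : 0 < c1 := by
    rcases hc with h | ⟨h, h'⟩
    · linarith
    · exact h'
  have hb0 : b2 = 0 := by
    rw [k3] at h2
    nlinarith
  have hb1 : 0 < b1 := by
    rcases hb with h | ⟨h, h'⟩
    · linarith
    · exact h'
  rw [hb0] at h1
  nlinarith

/-- Parallel upper vectors have the same direction. -/
theorem sd {a b : ℝ × ℝ} (ha : Up a) (hb : Up b) (h : det a b = 0) : SameDir a b := by
  obtain ⟨a1, a2⟩ := a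
  obtain ⟨b1, b2⟩ := b
  simp only [Up, det, SameDir] at *
  rcases ha with ha | ⟨ha, ha'⟩
  · have hb2 : 0 < b2 := by
      rcases hb with hb | ⟨hb, hb'⟩
      · exact hb
      · rw [hb] at h
        nlinarith
    refine ⟨b2 / a2, by positivity, ?_⟩
    ext
    · simp only [Prod.smul_mk, smul_eq_mul]
      field_simp
      linarith
    · simp only [Prod.smul_mk, smul_eq_mul]
      field_simp
  · have hb2 : b2 = 0 := by
      rw [ha] at h
      simp only [zero_mul, sub_zero, mul_eq_zero] at h
      rcases h with h | h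
      · linarith
      · exact h
    have hb1 : 0 < b1 := by
      rcases hb with hb | ⟨hb, hb'⟩
      · linarith
      · exact hb'
    refine ⟨b1 / a1, by positivity, ?_⟩
    ext
    · simp only [Prod.smul_mk, smul_eq_mul]
      field_simp
    · simp only [Prod.smul_mk, smul_eq_mul, ha, hb2, mul_zero]

theorem sd_neg {a b : ℝ × ℝ} (h : SameDir (-a) (-b)) : SameDir a b := by
  obtain ⟨c, hc, h⟩ := h
  refine ⟨c, hc, ?_⟩
  rw [smul_neg, neg_inj] at h
  exact h

theorem det_neg_left (a b : ℝ × ℝ) : det (-a) b = - det a b := by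
  simp only [det, Prod.fst_neg, Prod.snd_neg]; ring

theorem det_neg_right (a b : ℝ × ℝ) : det a (-b) = - det a b := by
  simp only [det, Prod.fst_neg, Prod.snd_neg]; ring

theorem det_anti (a b : ℝ × ℝ) : det a b = - det b a := by
  simp only [det]; ring

/-- the sign of a vector: `1` for upper vectors, `-1` otherwise -/
theorem exists_sign {a : ℝ × ℝ} (ha : a ≠ 0) :
    ∃ s : ℝ, ((Up a ∧ s = 1) ∨ (¬ Up a ∧ s = -1)) ∧ Up (s • a) := by
  rcases Classical.em (Up a) with h | h
  · exact ⟨1, Or.inl ⟨h, rfl⟩, by rwa [one_smul]⟩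
  · exact ⟨-1, Or.inr ⟨h, rfl⟩, by rw [neg_one_smul]; exact up_neg_of ha h⟩

theorem det_smul_smul (s t : ℝ) (a b : ℝ × ℝ) : det (s • a) (t • b) = s * t * det a b := by
  simp only [det, Prod.smul_fst, Prod.smul_snd, smul_eq_mul]; ring

/-- Non parallel. -/
theorem det_ne {a b : ℝ × ℝ} (ha : a ≠ 0) (hb : b ≠ 0) (h : ¬ SameDir a b)
    (hs : Up a ↔ Up b) : det a b ≠ 0 := by
  intro h0
  rcases Classical.em (Up a) with h1 | h1
  · exact h (sd h1 (hs.1 h1) h0)
  · have h2 : ¬ Up b := fun h2 => h1 (hs.2 h2)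
    exact h (sd_neg (sd (up_neg_of ha h1) (up_neg_of hb h2)
      (by rw [det_neg_left, det_neg_right, h0, neg_zero, neg_zero])))

open Classical in
/-- The triangle formula. -/
theorem T {e w x : ℝ × ℝ} (he : e ≠ 0) (hw : w ≠ 0) (hx : x ≠ 0) (h1 : ¬ SameDir e x)
    (h2 : ¬ SameDir x w) (h3 : ¬ SameDir w e) :
    ub x + ub e + ub w + hh e x + hh x w + hh w e = (if CPos e w x then 1 else 0) ∧
      (CPos e w x ∨ CNeg e w x) := by
  obtain ⟨se, hse, ue⟩ := exists_sign he
  obtain ⟨sw, hsw, uw⟩ := exists_sign hw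
  obtain ⟨sx, hsx, ux⟩ := exists_sign hx
  have n1 := det_ne he hx h1
  have n2 := det_ne hx hw h2
  have n3 := det_ne hw he h3
  -- the six facts
  have k1 := K ue ux uw
  have k2 := K ux uw ue
  have k3 := K uw ue ux
  have k4 := K ux ue uw
  have k5 := K ue uw ux
  have k6 := K uw ux ue
  simp only [det_smul_smul] at k1 k2 k3 k4 k5 k6
  rw [det_anti x e, det_anti e w, det_anti w x] at k4 k5 k6
  unfold ub hh CPos CNeg
  generalize det e x = a at *
  generalize det x w = b at *
  generalize det w e = c at *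
  have two : (1 : ZMod 2) + 1 = 0 := by decide
  rcases hse with ⟨ve, rfl⟩ | ⟨ve, rfl⟩ <;> rcases hsw with ⟨vw, rfl⟩ | ⟨vw, rfl⟩ <;>
    rcases hsx with ⟨vx, rfl⟩ | ⟨vx, rfl⟩ <;>
    simp only [ve, vw, vx, true_and, false_and, and_false, and_true, not_true, not_false_iff,
      or_false, false_or, if_false, if_true, iff_true, iff_false, true_iff, false_iff,
      forall_true_left, forall_false, one_mul, mul_one, neg_mul, mul_neg, neg_neg] at * <;>
    rcases lt_trichotomy a 0 with sa | sa | sa <;> rcases lt_trichotomy b 0 with sb | sb | sb <;>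
    rcases lt_trichotomy c 0 with sc | sc | sc <;>
    first
    | exact absurd sa n1
    | exact absurd sb n2
    | exact absurd sc n3
    | (simp [sa, sb, sc, sa.not_gt, sb.not_gt, sc.not_gt, two]; done)
    | (exfalso; apply k1 <;> linarith)
    | (exfalso; apply k2 <;> linarith)
    | (exfalso; apply k3 <;> linarith)
    | (exfalso; apply k4 <;> linarith)
    | (exfalso; apply k5 <;> linarith)
    | (exfalso; apply k6 <;> linarith)

theorem sd_symm {a b : ℝ × ℝ} (h : SameDir a b) : SameDir b a := by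
  obtain ⟨c, hc, rfl⟩ := h
  exact ⟨c⁻¹, by positivity, by rw [smul_smul, inv_mul_cancel₀ hc.ne', one_smul]⟩

open Classical in
theorem hh_comm {p q : ℝ × ℝ} (hp : p ≠ 0) (hq : q ≠ 0) (h : ¬ SameDir p q) :
    hh p q + hh q p = 1 + ub p + ub q := by
  have n := det_ne hp hq h
  unfold ub hh
  rw [det_anti q p]
  generalize det p q = a at *
  have two : (1 : ZMod 2) + 1 = 0 := by decide
  rcases Classical.em (Up p) with vp | vp <;> rcases Classical.em (Up q) with vq | vq <;>
    rcases lt_trichotomy a 0 with sa | sa | sa <;>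
    first
    | (simp [vp, vq, sa, sa.not_gt, two]; done)
    | (refine absurd sa (n ?_); simp [vp, vq]; done)

theorem up_smul_iff {p : ℝ × ℝ} {c : ℝ} (hc : 0 < c) : Up (c • p) ↔ Up p := by
  refine ⟨fun h => ?_, up_smul hc⟩
  have := up_smul (inv_pos.2 hc) h
  rwa [smul_smul, inv_mul_cancel₀ hc.ne', one_smul] at this

open Classical in
theorem ub_smul {p : ℝ × ℝ} {c : ℝ} (hc : 0 < c) : ub (c • p) = ub p := by
  unfold ub
  rw [propext (up_smul_iff (p := p) hc)]

open Classical in
theorem hh_smul_right {p q : ℝ × ℝ} {c : ℝ} (hc : 0 < c) : hh p (c • q) = hh p q := by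
  have h : det p (c • q) = c * det p q := by
    have := det_smul_smul 1 c p q
    rwa [one_smul, one_mul] at this
  have e1 : (0 < c * det p q) = (0 < det p q) := propext (mul_pos_iff_of_pos_left hc)
  have e2 : (c * det p q < 0) = (det p q < 0) := propext ⟨fun h => by
    by_contra h'; push Not at h'; have := mul_nonneg hc.le h'; linarith,
    fun h => mul_neg_of_pos_of_neg hc h⟩
  unfold hh
  rw [propext (up_smul_iff (p := q) hc), h]
  refine if_congr ?_ rfl rfl
  rw [e1, e2]

open Classical in
theorem hh_smul_left {p q : ℝ × ℝ} {c : ℝ} (hc : 0 < c) : hh (c • p) q = hh p q := by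
  have h : det (c • p) q = c * det p q := by
    have := det_smul_smul c 1 p q
    rwa [one_smul, mul_one] at this
  have e1 : (0 < c * det p q) = (0 < det p q) := propext (mul_pos_iff_of_pos_left hc)
  have e2 : (c * det p q < 0) = (det p q < 0) := propext ⟨fun h => by
    by_contra h'; push Not at h'; have := mul_nonneg hc.le h'; linarith,
    fun h => mul_neg_of_pos_of_neg hc h⟩
  unfold hh
  rw [propext (up_smul_iff (p := p) hc), h]
  refine if_congr ?_ rfl rfl
  rw [e1, e2]

theorem vert : StB1 := by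
  intro E N W S hE hN hW hS h1 h2 h3 h4 hk
  have two : (1 : ZMod 2) + 1 = 0 := by decide
  have dbl : ∀ z : ZMod 2, z + z = 0 := by decide
  have cES := hh_comm hE hS h4
  have cWS := hh_comm hW hS h3
  by_cases h5 : SameDir E W
  · exfalso
    obtain ⟨c, hc, rfl⟩ := h5
    rw [ub_smul hc, hh_smul_right hc, hh_smul_left hc] at hk
    have cEN := hh_comm hE hN h1
    have : ub E + ub N + ub E + ub S + (hh E N + hh N E + hh E S + hh S E)
        = 0 := by
      calc _ = (ub E + ub E) + ub N + ub S + (hh E N + hh N E) + (hh E S + hh S E) := by ring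
        _ = (ub E + ub E) + ub N + ub S + (1 + ub E + ub N) + (1 + ub E + ub S) := by rw [cES, cEN]
        _ = (1 + 1) + (ub N + ub N) + (ub S + ub S) + (ub E + ub E) + (ub E + ub E) := by ring
        _ = 0 := by rw [two, dbl (ub N), dbl (ub S), dbl (ub E)]; ring
    rw [this] at hk
    exact absurd hk (by decide)
  · have h6 : ¬ SameDir W E := fun h => h5 (sd_symm h)
    obtain ⟨tN, dN⟩ := T hE hW hN h1 (fun h => h2 (sd_symm h)) h6
    obtain ⟨tS, dS⟩ := T hE hW hS h4 (fun h => h3 (sd_symm h)) h6
    have key : ub E + ub N + ub W + ub S + (hh E N + hh N W + hh W S + hh S E)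
        = (ub N + ub E + ub W + hh E N + hh N W + hh W E)
          + (ub S + ub E + ub W + hh E S + hh S W + hh W E) := by
      have e1 : hh W S = 1 + ub W + ub S - hh S W := by rw [← cWS]; ring
      have e2 : hh S E = 1 + ub E + ub S - hh E S := by rw [← cES]; ring
      rw [e1, e2]
      have : ∀ x y : ZMod 2, x - y = x + y := by decide
      rw [this, this]
      have : ∀ uE uN uW uS a b c d e : ZMod 2,
          uE + uN + uW + uS + (a + b + (1 + uW + uS + c) + (1 + uE + uS + d)) =
          uN + uE + uW + a + b + e + (uS + uE + uW + d + c + e) := by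
        intro uE uN uW uS a b c d e
        calc _ = (uE + uN + uW + uS + a + b + c + d) + (1 + 1) + (uS + uS) + (uE + uW) := by ring
          _ = (uE + uN + uW + uS + a + b + c + d) + (e + e) + (uE + uW) := by
            rw [two, dbl, dbl]; ring
          _ = _ := by ring
      exact this _ _ _ _ _ _ _ _ _
    rw [key, tN, tS] at hk
    by_cases cN : CPos E W N
    · by_cases cS : CPos E W S
      · rw [if_pos cN, if_pos cS, two] at hk
        exact absurd hk (by decide)
      · left; exact ⟨cN, dS.resolve_left cS⟩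
    · by_cases cS : CPos E W S
      · right; exact ⟨dN.resolve_left cN, cS⟩
      · rw [if_neg cN, if_neg cS, add_zero] at hk
        exact absurd hk (by decide)

end Vale.Agent.P305.R2.H703.V
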